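import Vale.Agent.P034.Frag

namespace Vale.Agent.P034

open Finset

variable {X : Type} [Fintype X] [DecidableEq X] {J : ℕ}

lemma geo_le (s : Finset ℕ) : ∑ j ∈ s, (1 / 2 : ℝ) ^ j ≤ 2 := by
  exact (summable_geometric_two.sum_le_tsum s fun _ _ => by positivity).trans_eq tsum_geometric_two

lemma geo_fin (s : Finset (Fin (J + 1))) : ∑ j ∈ s, (1 / 2 : ℝ) ^ (j : ℕ) ≤ 2 := by
  rw [← sum_image (f := fun j : ℕ => (1 / 2 : ℝ) ^ j) (g := Fin.val)
    fun _ _ _ _ h => Fin.ext h]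
  exact geo_le _

def tt (b : X → Fin (J + 1)) (T : Finset X) (i : Fin (J + 1)) : ℕ := (T.filter fun x => b x = i).card

def cum (t : Fin (J + 1) → ℕ) (j : ℕ) : ℕ := ∑ i ∈ univ.filter fun i : Fin (J + 1) => (i : ℕ) ≤ j, t i

lemma cum_tt (b : X → Fin (J + 1)) (T : Finset X) : cum (tt b T) = cnt b T := by
  funext j
  unfold cum cnt tt
  rw [card_eq_sum_card_fiberwise (f := b) (t := univ.filter fun i : Fin (J + 1) => (i : ℕ) ≤ j)
    fun x hx => by simpa using (mem_filter.mp hx).2]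
  refine sum_congr rfl fun i hi => ?_
  congr 1
  ext x
  simp only [mem_filter, mem_univ, true_and] at hi ⊢
  constructor
  · rintro ⟨h1, h2⟩; exact ⟨⟨h1, h2 ▸ hi⟩, h2⟩
  · rintro ⟨h1, h2⟩; exact ⟨h1.1, h2⟩

lemma prod_tt (b : X → Fin (J + 1)) (T : Finset X) (f : Fin (J + 1) → ℝ) :
    ∏ x ∈ T, f (b x) = ∏ i, f i ^ tt b T i := by
  rw [← prod_fiberwise' T b f]
  simp [tt]

open Classical in
lemma fiber_le (F : Finset (Finset X)) (lam : Finset X → X → ℝ) (b : X → Fin (J + 1))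
    (t : Fin (J + 1) → ℕ) :
    ∑ T ∈ (univ.filter (Valid F lam b)).filter (fun T => tt b T = t),
      ∏ x ∈ T, ((1 / 8 : ℝ) ^ (b x : ℕ) / 500) ≤ ∏ i : Fin (J + 1), (24 / 500 * (1 / 2 : ℝ) ^ (i : ℕ)) ^ t i := by
  obtain ⟨w, hw⟩ : ∃ w, w = lam (HH F lam b (cum t)) := ⟨_, rfl⟩
  obtain ⟨E, hE⟩ : ∃ E, E = univ.filter fun x => x ∈ Top w (cum t) (b x) := ⟨_, rfl⟩
  obtain ⟨y, hy⟩ : ∃ y : Fin (J + 1) → ℝ, y = fun i : Fin (J + 1) => (1 / 4 : ℝ) ^ (i : ℕ) / 8 := ⟨_, rfl⟩
  have y0 : ∀ i, 0 ≤ y i := fun i => by rw [hy]; positivity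
  have a : ∑ T ∈ (univ.filter (Valid F lam b)).filter (fun T => tt b T = t),
      ∏ x ∈ T, ((1 / 8 : ℝ) ^ (b x : ℕ) / 500)
      ≤ ∑ T ∈ E.powerset, (∏ i : Fin (J + 1), (8 / 500 * (1 / 2 : ℝ) ^ (i : ℕ)) ^ t i) * ∏ x ∈ T, y (b x) := by
    refine le_trans (le_of_eq (sum_congr rfl fun T hT => ?_))
      (sum_le_sum_of_subset_of_nonneg (fun T hT => ?_) fun T _ _ =>
        mul_nonneg (by positivity) (prod_nonneg fun x _ => y0 _))
    · rw [← (mem_filter.mp hT).2, ← prod_tt b T fun i : Fin (J + 1) => 8 / 500 * (1 / 2 : ℝ) ^ (i : ℕ),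
        ← prod_mul_distrib]
      refine prod_congr rfl fun x _ => ?_
      rw [hy, show (1 / 8 : ℝ) = 1 / 2 * (1 / 4) by norm_num, mul_pow]
      ring
    · obtain ⟨h1, h2⟩ := mem_filter.mp hT
      have h3 := (mem_filter.mp h1).2.2
      rw [← cum_tt, h2, ← hw] at h3
      rw [hE]
      exact mem_powerset.mpr fun x hx => mem_filter.mpr ⟨mem_univ _, h3 x hx⟩
  refine a.trans ?_
  rw [← mul_sum, ← prod_one_add]
  have c : ∏ x ∈ E, (1 + y (b x)) ≤ ∏ i, (3 : ℝ) ^ t i := by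
    calc _ ≤ ∏ x ∈ E, Real.exp (y (b x)) := prod_le_prod (fun x _ => by linarith [y0 (b x)])
          fun x _ => by linarith [Real.add_one_le_exp (y (b x))]
      _ = Real.exp (∑ i, ∑ x ∈ E.filter (fun x => b x = i), y i) := by
          rw [← Real.exp_sum, sum_fiberwise']
      _ ≤ Real.exp (∑ i : Fin (J + 1), (1 / 2 : ℝ) ^ (i : ℕ) * ((∑ k, t k : ℕ) / 2)) := by
          refine Real.exp_le_exp.mpr (sum_le_sum fun i _ => ?_)
          rw [sum_const, nsmul_eq_mul]
          have h1 : (E.filter fun x => b x = i).card ≤ KK i * ∑ k, t k := by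
            refine (card_le_card (t := Top w (cum t) i) fun x hx => ?_).trans
              ((Top_card w _ _).trans (Nat.mul_le_mul_left _
                (sum_le_sum_of_subset (subset_univ _))))
            obtain ⟨h1, h2⟩ := mem_filter.mp hx
            rw [hE] at h1
            exact h2 ▸ (mem_filter.mp h1).2
          have h2 : ((E.filter fun x => b x = i).card : ℝ) ≤ 4 * 2 ^ (i : ℕ) * (∑ k, t k : ℕ) := by
            exact_mod_cast h1
          refine (mul_le_mul_of_nonneg_right h2 (y0 i)).trans (le_of_eq ?_)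
          rw [hy, show (1 / 2 : ℝ) = 2 * (1 / 4) by norm_num, mul_pow]
          ring
      _ ≤ Real.exp ((∑ k, t k : ℕ) * 1) := by
          rw [← sum_mul]
          refine Real.exp_le_exp.mpr ?_
          have := mul_le_mul_of_nonneg_right (geo_fin (J := J) univ)
            (by positivity : (0 : ℝ) ≤ (∑ k, t k : ℕ) / 2)
          linarith
      _ ≤ _ := by
          rw [Real.exp_nat_mul, prod_pow_eq_pow_sum]
          exact pow_le_pow_left₀ (Real.exp_pos _).le (by linarith [Real.exp_one_lt_d9]) _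
  refine (mul_le_mul_of_nonneg_left c (by positivity)).trans (le_of_eq ?_)
  rw [← prod_mul_distrib]
  exact prod_congr rfl fun i _ => by rw [← mul_pow]; congr 1; ring

open Classical in
lemma count_le (F : Finset (Finset X)) (lam : Finset X → X → ℝ) (b : X → Fin (J + 1)) :
    ∑ T ∈ univ.filter (Valid F lam b), ∏ x ∈ T, ((1 / 8 : ℝ) ^ (b x : ℕ) / 500) < 1 / 4 := by
  obtain ⟨z, hz⟩ : ∃ z : Fin (J + 1) → ℝ, z = fun i : Fin (J + 1) => 24 / 500 * (1 / 2 : ℝ) ^ (i : ℕ) := ⟨_, rfl⟩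
  have z0 : ∀ i, 0 ≤ z i := fun i => by rw [hz]; positivity
  have z1 : ∀ i, z i ≤ 1 / 2 := fun i => by
    have : (1 / 2 : ℝ) ^ (i : ℕ) ≤ 1 := pow_le_one₀ (by norm_num) (by norm_num)
    rw [hz]; simp only; linarith
  rw [← sum_fiberwise_of_maps_to (g := tt b) (t := (Fintype.piFinset fun _ : Fin (J + 1) =>
    range (Fintype.card X + 1)).erase 0) fun T hT => ?_]
  · refine (sum_le_sum fun t _ => fiber_le F lam b t).trans_lt ?_
    have e := add_sum_erase (Fintype.piFinset fun _ : Fin (J + 1) => range (Fintype.card X + 1))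
      (fun t => ∏ i, z i ^ t i) (a := 0) (by simp)
    rw [← prod_univ_sum (f := fun i k => z i ^ k)] at e
    simp only [Pi.zero_apply, pow_zero, prod_const_one] at e
    have a : ∏ i, ∑ k ∈ range (Fintype.card X + 1), z i ^ k ≤ Real.exp (∑ i, 2 * z i) := by
      rw [Real.exp_sum]
      refine prod_le_prod (fun i _ => sum_nonneg fun k _ => pow_nonneg (z0 i) _) fun i _ => ?_
      have g := geom_sum_mul_neg (z i) (Fintype.card X + 1)
      have := pow_nonneg (z0 i) (Fintype.card X + 1)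
      have h := z0 i
      have h' := z1 i
      refine le_trans ?_ (Real.add_one_le_exp _)
      refine le_of_mul_le_mul_right (a := 1 - z i) ?_ (by linarith)
      nlinarith
    have c : ∑ i, 2 * z i ≤ 96 / 500 := by
      rw [hz, ← mul_sum, ← mul_sum]
      linarith [geo_fin (J := J) univ]
    have d : Real.exp (96 / 500) < 5 / 4 := by
      have h1 := Real.add_one_le_exp (-(96 / 500))
      have h2 : Real.exp (-(96 / 500)) * Real.exp (96 / 500) = 1 := by rw [← Real.exp_add]; simp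
      nlinarith [Real.exp_pos (96 / 500)]
    have := Real.exp_le_exp.mpr c
    rw [hz] at e a
    simp only [hz] at this
    linarith
  · obtain ⟨x, hx⟩ := (mem_filter.mp hT).2.1
    refine mem_erase.mpr ⟨fun h => ?_, Fintype.mem_piFinset.mpr fun i =>
      mem_range.mpr (Nat.lt_succ_of_le (card_le_univ _))⟩
    have : 0 < tt b T (b x) := card_pos.mpr ⟨x, mem_filter.mpr ⟨hx, rfl⟩⟩
    simp [h] at this

end Vale.Agent.P034
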