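import Vale.Agent.P034.Defs

namespace Vale.Agent.P034

open Finset

variable {X : Type} [Fintype X] [DecidableEq X]

noncomputable def Mx (w : X → ℝ) (N : ℕ) : ℝ :=
  (univ.filter fun A : Finset X => A.card ≤ N).sup' ⟨∅, by simp⟩ fun A => ∑ x ∈ A, w x

lemma Mx_ge (w : X → ℝ) {N : ℕ} {A : Finset X} (h : A.card ≤ N) : ∑ x ∈ A, w x ≤ Mx w N :=
  le_sup' (fun A : Finset X => ∑ x ∈ A, w x) (by simpa using h)

lemma Mx_ex (w : X → ℝ) (N : ℕ) : ∃ A : Finset X, A.card ≤ N ∧ Mx w N = ∑ x ∈ A, w x := by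
  obtain ⟨A, hA, e⟩ := exists_mem_eq_sup' (s := univ.filter fun A : Finset X => A.card ≤ N)
    ⟨∅, by simp⟩ fun A => ∑ x ∈ A, w x
  exact ⟨A, by simpa using hA, e⟩

lemma Mx_mono (w : X → ℝ) {N N' : ℕ} (h : N ≤ N') : Mx w N ≤ Mx w N' := by
  obtain ⟨A, hA, e⟩ := Mx_ex w N
  rw [e]; exact Mx_ge w (hA.trans h)

lemma Mx_le {w : X → ℝ} (h0 : ∀ x, 0 ≤ w x) (N : ℕ) : Mx w N ≤ ∑ x, w x := by
  obtain ⟨A, -, e⟩ := Mx_ex w N
  rw [e]; exact sum_le_sum_of_subset_of_nonneg (subset_univ _) fun x _ _ => h0 x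

lemma Mx_nonneg (w : X → ℝ) (N : ℕ) : 0 ≤ Mx w N := by
  simpa using Mx_ge w (A := ∅) (N := N) (by simp)

lemma top_card (w : X → ℝ) {K : ℕ} (hK : 0 < K) (n : ℕ) :
    (univ.filter fun x => (Mx w (K * (n + 1)) - Mx w (K * n)) / K < w x).card ≤ K * (n + 1) := by
  by_contra hn
  obtain ⟨A, hA, e⟩ := Mx_ex w (K * n)
  obtain ⟨E, hE, cE⟩ := exists_subset_card_eq (n := K) (s := (univ.filter fun x =>
    (Mx w (K * (n + 1)) - Mx w (K * n)) / K < w x) \ A) (by
      have := le_card_sdiff A (univ.filter fun x => (Mx w (K * (n + 1)) - Mx w (K * n)) / K < w x)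
      rw [mul_add] at hn this
      rw [mul_add]
      omega)
  have dj : Disjoint A E := disjoint_left.mpr fun x hx hx' => (mem_sdiff.mp (hE hx')).2 hx
  have a := Mx_ge w (A := A ∪ E) (N := K * (n + 1)) (by
    rw [card_union_of_disjoint dj, mul_add]; omega)
  rw [sum_union dj, ← e] at a
  have b : ∑ _x ∈ E, (Mx w (K * (n + 1)) - Mx w (K * n)) / K < ∑ x ∈ E, w x :=
    sum_lt_sum_of_nonempty (card_pos.mp (by omega)) fun x hx =>
      (mem_filter.mp (mem_sdiff.mp (hE hx)).1).2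
  rw [sum_const, cE, nsmul_eq_mul, mul_div_cancel₀ _ (by positivity)] at b
  linarith

variable {J : ℕ}

def KK (j : ℕ) : ℕ := 4 * 2 ^ j

lemma KK_pos (j : ℕ) : 0 < KK j := by unfold KK; positivity

def Good (w : X → ℝ) (b : X → Fin (J + 1)) (s : ℕ → ℕ) : Prop :=
  ∀ j, ∑ x ∈ univ.filter fun x => j < (b x : ℕ), w x ≤ (1 - Mx w (KK j * s j)) / KK j

open Classical in
noncomputable def HH (F : Finset (Finset X)) (lam : Finset X → X → ℝ) (b : X → Fin (J + 1))
    (s : ℕ → ℕ) : Finset X :=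
  if h : ∃ H ∈ F, Good (lam H) b s then h.choose else ∅

noncomputable def Top (w : X → ℝ) (s : ℕ → ℕ) (j : ℕ) : Finset X :=
  univ.filter fun x => 0 < s j ∧ (Mx w (KK j * s j) - Mx w (KK j * (s j - 1))) / KK j < w x

lemma Top_card (w : X → ℝ) (s : ℕ → ℕ) (j : ℕ) : (Top w s j).card ≤ KK j * s j := by
  unfold Top
  rcases h : s j with _ | n
  · simp
  · simpa using top_card w (KK_pos j) n

def cnt (b : X → Fin (J + 1)) (T : Finset X) (j : ℕ) : ℕ := (T.filter fun x => (b x : ℕ) ≤ j).card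

def Tset (a b : X → Fin (J + 1)) : Finset X := univ.filter fun x => b x < a x

def Valid (F : Finset (Finset X)) (lam : Finset X → X → ℝ) (b : X → Fin (J + 1))
    (T : Finset X) : Prop :=
  T.Nonempty ∧ ∀ x ∈ T, x ∈ Top (lam (HH F lam b (cnt b T))) (cnt b T) (b x)

lemma frag {F : Finset (Finset X)} {lam : Finset X → X → ℝ} (l0 : ∀ H x, 0 ≤ lam H x)
    (l1 : ∀ H ∈ F, ∑ x, lam H x ≤ 1) (l2 : ∀ H x, x ∉ H → lam H x = 0) (a : X → Fin (J + 1))
    (hb : ¬ ∃ H ∈ F, Good (lam H) a fun _ => 0) {H : Finset X} (hH : H ∈ F) :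
    ∃ b, (∀ x, b x ≤ a x) ∧ Tset a b ⊆ H ∧ Valid F lam b (Tset a b) := by
  classical
  obtain ⟨b, hb1, hb2⟩ := exists_max_image (univ.filter fun b : X → Fin (J + 1) =>
    (∀ x, b x ≤ a x) ∧ Tset a b ⊆ H ∧ ∃ H' ∈ F, Good (lam H') b (cnt b (Tset a b)))
    (fun b => ∑ x, (b x : ℕ)) ⟨fun x => if x ∈ H then 0 else a x, by
      simp only [mem_filter, mem_univ, true_and]
      refine ⟨fun x => by split_ifs <;> simp, fun x hx => ?_, H, hH, fun j => ?_⟩
      · by_contra h
        simp [Tset, h] at hx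
      · rw [sum_eq_zero fun x hx => l2 H x fun h => by simp [h] at hx]
        have := (Mx_le (l0 H) (KK j * cnt (fun x => if x ∈ H then 0 else a x)
          (Tset a fun x => if x ∈ H then 0 else a x) j)).trans (l1 H hH)
        exact div_nonneg (by linarith) (by positivity)⟩
  obtain ⟨c1, c2, c3⟩ := (mem_filter.mp hb1).2
  refine ⟨b, c1, c2, ?_, fun x hx => ?_⟩
  · by_contra hn
    rw [not_nonempty_iff_eq_empty] at hn
    have e : b = a := funext fun x => (c1 x).eq_or_lt.resolve_right fun h =>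
      notMem_empty x (hn ▸ (by simpa [Tset] using h : x ∈ Tset a b))
    rw [hn] at c3
    rw [e] at c3
    exact hb c3
  have hx' : b x < a x := by simpa [Tset] using hx
  obtain ⟨H', e'⟩ : ∃ H', H' = HH F lam b (cnt b (Tset a b)) := ⟨_, rfl⟩
  have hH' : H' ∈ F ∧ Good (lam H') b (cnt b (Tset a b)) := by
    rw [e', HH, dif_pos c3]; exact c3.choose_spec
  rw [← e']
  have pos : 0 < cnt b (Tset a b) (b x) := card_pos.mpr ⟨x, mem_filter.mpr ⟨hx, le_rfl⟩⟩
  by_contra hn
  simp only [Top, mem_filter, mem_univ, true_and, pos, not_lt] at hn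
  obtain ⟨b', hb'⟩ : ∃ b' : X → Fin (J + 1), b' = Function.update b x
    ⟨b x + 1, by have := (a x).2; have : (b x : ℕ) < a x := hx'; omega⟩ := ⟨_, rfl⟩
  have v1 : (b' x : ℕ) = b x + 1 := by simp [hb']
  have v2 : ∀ y, y ≠ x → b' y = b y := fun y hy => by simp [hb', hy]
  have v3 : ∀ y, b y ≤ b' y := fun y => by
    by_cases hy : y = x
    · rw [hy, Fin.le_def, v1]; omega
    · rw [v2 y hy]
  have sT : Tset a b' ⊆ Tset a b := fun y hy => by
    simp only [Tset, mem_filter, mem_univ, true_and] at hy ⊢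
    exact (v3 y).trans_lt hy
  have sc : ∀ j, (Tset a b').filter (fun y => (b' y : ℕ) ≤ j)
      ⊆ (Tset a b).filter fun y => (b y : ℕ) ≤ j := fun j y hy =>
    mem_filter.mpr ⟨sT (mem_filter.mp hy).1, (Fin.le_def.mp (v3 y)).trans (mem_filter.mp hy).2⟩
  have := hb2 b' (mem_filter.mpr ⟨mem_univ _, fun y => ?_, sT.trans c2, H', hH'.1, fun j => ?_⟩)
  · have : ∑ y, (b y : ℕ) < ∑ y, (b' y : ℕ) :=
      sum_lt_sum (fun y _ => v3 y) ⟨x, mem_univ _, by omega⟩
    omega
  · by_cases hy : y = x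
    · rw [hy, Fin.le_def, v1]; exact hx'
    · rw [v2 y hy]; exact c1 y
  have g := hH'.2 j
  have kp : (0 : ℝ) < KK j := by exact_mod_cast KK_pos j
  by_cases hj : j = b x
  · have e : (univ.filter fun y => j < (b' y : ℕ)) = insert x (univ.filter fun y => j < (b y : ℕ)) := by
      ext y
      by_cases hy : y = x
      · simp only [hy, v1, mem_filter, mem_univ, true_and, mem_insert, true_or, iff_true]; omega
      · simp [hy, v2 y hy]
    have lt : cnt b' (Tset a b') j ≤ cnt b (Tset a b) j - 1 := by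
      have : cnt b' (Tset a b') j < cnt b (Tset a b) j := card_lt_card ⟨sc j, fun h => by
        have := h (mem_filter.mpr ⟨hx, hj.ge⟩)
        have := (mem_filter.mp this).2
        omega⟩
      omega
    have m := Mx_mono (lam H') (Nat.mul_le_mul_left (KK j) lt)
    rw [e, sum_insert (by simp [hj])]
    rw [← hj] at hn
    refine (add_le_add hn g).trans ?_
    rw [← add_div]
    gcongr
    linarith
  · have e : (univ.filter fun y => j < (b' y : ℕ)) = univ.filter fun y => j < (b y : ℕ) := by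
      ext y
      by_cases hy : y = x
      · simp only [hy, v1, mem_filter, mem_univ, true_and]; omega
      · simp [v2 y hy]
    have m := Mx_mono (lam H') (Nat.mul_le_mul_left (KK j) (card_le_card (sc j)))
    rw [e]
    refine g.trans ?_
    gcongr
    exact m

end Vale.Agent.P034
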