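import Vale.Agent.P034.Count

namespace Vale.Agent.P034

open Finset

variable {X : Type} [Fintype X] [DecidableEq X] {J : ℕ}

lemma sum_prod_lab (f : X → Fin (J + 1) → ℝ) :
    ∑ a : X → Fin (J + 1), ∏ x, f x (a x) = ∏ x, ∑ j, f x j := by
  rw [prod_univ_sum, Fintype.piFinset_univ]

open Classical in
lemma pairs_le (F : Finset (Finset X)) (lam : Finset X → X → ℝ) {w : Fin (J + 1) → ℝ}
    (w0 : ∀ j, 0 < w j) (w1 : ∑ j, w j = 1) {p : ℝ} (p0 : 0 ≤ p)
    (hp : ∀ j, p ≤ w j * ((1 / 8 : ℝ) ^ (j : ℕ) / 500)) :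
    ∑ a : X → Fin (J + 1), (∏ x, w (a x)) * ∑ b ∈ univ.filter (fun b => (∀ x, b x ≤ a x) ∧
      Valid F lam b (Tset a b)), p ^ (Tset a b).card < 1 / 4 := by
  have step : ∀ a : X → Fin (J + 1), (∏ x, w (a x)) * ∑ b ∈ univ.filter (fun b => (∀ x, b x ≤ a x) ∧
      Valid F lam b (Tset a b)), p ^ (Tset a b).card
      ≤ ∑ b : X → Fin (J + 1), ∑ T ∈ univ.filter (Valid F lam b),
        ∏ x, if x ∈ T then w (a x) * p else if a x = b x then w (a x) else 0 := by
    intro a
    have nn : ∀ (b : X → Fin (J + 1)) (T : Finset X),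
        0 ≤ ∏ x, if x ∈ T then w (a x) * p else if a x = b x then w (a x) else 0 := fun b T =>
      prod_nonneg fun x _ => by have := w0 (a x); split_ifs <;> positivity
    rw [mul_sum]
    refine (sum_le_sum fun b hb => ?_).trans (sum_le_sum_of_subset_of_nonneg (subset_univ _)
      fun b _ _ => sum_nonneg fun T _ => nn b T)
    obtain ⟨h1, h2⟩ := (mem_filter.mp hb).2
    refine le_trans (le_of_eq ?_) (single_le_sum (fun T _ => nn b T)
      (mem_filter.mpr ⟨mem_univ _, h2⟩))
    rw [← prod_const, ← prod_ite_mem_eq (Tset a b), ← prod_mul_distrib]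
    refine prod_congr rfl fun x _ => ?_
    split_ifs with h h'
    · rfl
    · exact mul_one _
    · exact (h' ((h1 x).eq_or_lt.resolve_right (by simpa [Tset] using h)).symm).elim
  refine (sum_le_sum fun a _ => step a).trans_lt ?_
  rw [sum_comm]
  calc _ ≤ ∑ b : X → Fin (J + 1), (∏ x, w (b x)) * ∑ T ∈ univ.filter (Valid F lam b),
        ∏ x ∈ T, ((1 / 8 : ℝ) ^ (b x : ℕ) / 500) := by
        refine sum_le_sum fun b _ => ?_
        rw [sum_comm, mul_sum]
        refine sum_le_sum fun T _ => ?_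
        rw [sum_prod_lab fun x j => if x ∈ T then w j * p else if j = b x then w j else 0,
          ← prod_ite_mem_eq T, ← prod_mul_distrib]
        refine prod_le_prod (fun x _ => sum_nonneg fun j _ => by
          have := w0 j; split_ifs <;> positivity) fun x _ => ?_
        split_ifs with h
        · rw [← sum_mul, w1, one_mul]; exact hp _
        · simp
    _ < ∑ b : X → Fin (J + 1), (∏ x, w (b x)) * (1 / 4) :=
        sum_lt_sum_of_nonempty univ_nonempty fun b _ =>
          mul_lt_mul_of_pos_left (count_le F lam b) (prod_pos fun x _ => w0 _)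
    _ = _ := by rw [← sum_mul, sum_prod_lab fun _ j => w j]; simp [w1]

lemma good_sum {w : X → ℝ} (a : X → Fin (J + 1)) (h : Good w a fun _ => 0) :
    ∑ x, w x * (a x : ℕ) ≤ 1 / 2 := by
  have e : ∑ x, w x * (a x : ℕ) = ∑ j ∈ range (J + 1),
      ∑ x ∈ univ.filter fun x => j < (a x : ℕ), w x := by
    simp_rw [sum_filter]
    rw [sum_comm]
    refine sum_congr rfl fun x _ => ?_
    rw [← sum_filter, sum_const, nsmul_eq_mul, mul_comm]
    congr 2
    have e : (range (J + 1)).filter (fun j => j < (a x : ℕ)) = range (a x) := by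
      ext j
      have := (a x).2
      simp only [mem_range, mem_filter]; omega
    rw [e, card_range]
  rw [e]
  calc _ ≤ ∑ j ∈ range (J + 1), (1 / 2 : ℝ) ^ j / 4 := sum_le_sum fun j _ => (h j).trans (by
        have := Mx_nonneg w (KK j * 0)
        rw [div_le_iff₀ (by exact_mod_cast KK_pos j)]
        have e : (1 / 2 : ℝ) ^ j / 4 * (KK j : ℝ) = 1 := by
          unfold KK; push_cast; rw [one_div, inv_pow]; field_simp
        linarith)
    _ ≤ _ := by rw [← sum_div]; linarith [geo_le (range (J + 1))]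

lemma phi_ge (a : X → Fin (J + 1)) {S : Finset X} (hS : S.Nonempty) :
    1 - (∑ x ∈ S, ((a x : ℕ) : ℝ)) / S.card ≤ ∏ x ∈ S, (16 * (1 / 16 : ℝ) ^ (a x : ℕ)) := by
  have c : (0 : ℝ) < S.card := by exact_mod_cast hS.card_pos
  by_cases h : ∑ x ∈ S, (a x : ℕ) ≤ S.card
  · rw [prod_mul_distrib, prod_const, prod_pow_eq_pow_sum]
    have : (1 / 16 : ℝ) ^ S.card ≤ (1 / 16) ^ ∑ x ∈ S, (a x : ℕ) :=
      pow_le_pow_of_le_one (by norm_num) (by norm_num) h
    have e : (16 : ℝ) ^ S.card * (1 / 16) ^ S.card = 1 := by rw [← mul_pow]; norm_num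
    have := mul_le_mul_of_nonneg_left this (by positivity : (0 : ℝ) ≤ 16 ^ S.card)
    have : 0 ≤ (∑ x ∈ S, ((a x : ℕ) : ℝ)) / S.card := by positivity
    linarith
  · refine le_trans ?_ (prod_nonneg fun x _ => by positivity)
    rw [sub_nonpos, le_div_iff₀ c, one_mul]
    exact_mod_cast (not_le.mp h).le

theorem small_of_frac {F : Finset (Finset X)} {p : ℝ} (p0 : 0 < p) (p1 : p ≤ 1)
    (h : FracSmall F p) : Small F (p / 1024000) := by
  classical
  by_contra hn
  obtain ⟨g, g0, g1, g2⟩ := h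
  obtain ⟨r, hr⟩ : ∃ r, r = p / 1024000 := ⟨_, rfl⟩
  rw [← hr] at hn
  have r0 : 0 < r := by rw [hr]; positivity
  obtain ⟨J, J1, J2⟩ := exists_nat_pow_near (x := 1 / (1000 * r)) (y := (8 : ℝ))
    (by rw [le_div_iff₀ (by positivity), hr]; linarith) (by norm_num)
  rw [le_div_iff₀ (by positivity)] at J1
  rw [div_lt_iff₀ (by positivity), pow_succ] at J2
  obtain ⟨σ, hσ⟩ : ∃ σ : ℝ, σ = ∑ j : Fin (J + 1), 8 ^ (j : ℕ) := ⟨_, rfl⟩
  have s1 : 8 ^ J ≤ σ := by
    rw [hσ]
    exact single_le_sum (f := fun j : Fin (J + 1) => (8 : ℝ) ^ (j : ℕ)) (fun _ _ => by positivity)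
      (mem_univ (Fin.last J))
  have s2 : σ ≤ 2 * 8 ^ J := by
    have := geom_sum_mul (8 : ℝ) (J + 1)
    rw [← Fin.sum_univ_eq_sum_range, ← hσ, pow_succ] at this
    have : (0 : ℝ) < 8 ^ J := by positivity
    linarith
  have s0 : 0 < σ := lt_of_lt_of_le (by positivity) s1
  obtain ⟨w, hw⟩ : ∃ w : Fin (J + 1) → ℝ, w = fun j : Fin (J + 1) => 8 ^ (j : ℕ) / σ := ⟨_, rfl⟩
  have w0 : ∀ j, 0 < w j := fun j => by rw [hw]; positivity
  have w1 : ∑ j, w j = 1 := by rw [hw, ← sum_div, ← hσ, div_self s0.ne']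
  have hp : ∀ j, r ≤ w j * ((1 / 8 : ℝ) ^ (j : ℕ) / 500) := fun j => by
    have : w j * ((1 / 8 : ℝ) ^ (j : ℕ) / 500) = 1 / (500 * σ) := by
      rw [hw, one_div, inv_pow]; field_simp
    rw [this, le_div_iff₀ (by positivity)]
    nlinarith
  have hφ : ∑ j, w j * (16 * (1 / 16 : ℝ) ^ (j : ℕ)) ≤ p / 4 := by
    have : ∀ j : Fin (J + 1), w j * (16 * (1 / 16 : ℝ) ^ (j : ℕ)) = 16 / σ * (1 / 2) ^ (j : ℕ) :=
      fun j => by rw [hw, show (1 / 2 : ℝ) = 8 * (1 / 16) by norm_num, mul_pow]; ring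
    simp_rw [this]
    rw [← mul_sum]
    refine (mul_le_mul_of_nonneg_left (geo_fin univ) (by positivity)).trans ?_
    rw [div_mul_eq_mul_div, div_le_iff₀ s0]
    have : p = 1024000 * r := by rw [hr]; ring
    rw [this]
    nlinarith
  obtain ⟨G, hG⟩ : ∃ G : Finset X → ℝ, G = fun H => ∑ S ∈ H.powerset.erase ∅, g S := ⟨_, rfl⟩
  have ge : g ∅ ≤ 1 / 2 := by
    refine le_trans ?_ g2
    simpa using single_le_sum (f := fun S : Finset X => g S * p ^ S.card)
      (fun S _ => mul_nonneg (g0 S).1 (by positivity)) (mem_univ ∅)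
  have G1 : ∀ H ∈ F, 1 / 2 ≤ G H := fun H hH => by
    have := add_sum_erase H.powerset g (empty_mem_powerset H)
    have := g1 H hH
    rw [hG]; simp only; linarith
  have G0 : ∀ H, 0 ≤ G H := fun H => by rw [hG]; exact sum_nonneg fun S _ => (g0 S).1
  obtain ⟨lam, hl⟩ : ∃ lam : Finset X → X → ℝ, lam = fun H x =>
    (∑ S ∈ H.powerset.erase ∅, if x ∈ S then g S / S.card else 0) / G H := ⟨_, rfl⟩
  have l0 : ∀ H x, 0 ≤ lam H x := fun H x => by
    rw [hl]
    exact div_nonneg (sum_nonneg fun S _ => by have := (g0 S).1; split_ifs <;> positivity) (G0 H)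
  have l2 : ∀ H x, x ∉ H → lam H x = 0 := fun H x hx => by
    rw [hl]
    simp only
    rw [sum_eq_zero fun S hS => if_neg fun h => hx (mem_powerset.mp (mem_erase.mp hS).2 h), zero_div]
  have le : ∀ H (f : X → ℝ), ∑ x, lam H x * f x
      = (∑ S ∈ H.powerset.erase ∅, g S * ((∑ x ∈ S, f x) / S.card)) / G H := fun H f => by
    rw [hl]
    simp only [div_mul_eq_mul_div, ← sum_div, sum_mul]
    rw [sum_comm]
    congr 1
    refine sum_congr rfl fun S _ => ?_
    simp only [ite_mul, zero_mul, sum_ite_mem, univ_inter, ← mul_sum]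
    ring
  have l1 : ∀ H ∈ F, ∑ x, lam H x ≤ 1 := fun H hH => by
    have := le H fun _ => 1
    simp only [mul_one] at this
    rw [this, div_le_one (by linarith [G1 H hH]), hG]
    refine sum_le_sum fun S hS => ?_
    have c : (0 : ℝ) < S.card := by
      exact_mod_cast card_pos.mpr (nonempty_iff_ne_empty.mpr (mem_erase.mp hS).1)
    simp [div_self c.ne']
  obtain ⟨Z, hZ⟩ : ∃ Z : (X → Fin (J + 1)) → ℝ, Z = fun a =>
    ∑ S ∈ univ.erase ∅, g S * ∏ x ∈ S, (16 * (1 / 16 : ℝ) ^ (a x : ℕ)) := ⟨_, rfl⟩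
  have Z0 : ∀ a, 0 ≤ Z a := fun a => by
    rw [hZ]; exact sum_nonneg fun S _ => mul_nonneg (g0 S).1 (prod_nonneg fun _ _ => by positivity)
  have pt : ∀ a : X → Fin (J + 1), 1 / 2 ≤ (∑ b ∈ univ.filter (fun b => (∀ x, b x ≤ a x) ∧
      Valid F lam b (Tset a b)), r ^ (Tset a b).card) + 2 * Z a := by
    intro a
    by_cases hb : ∃ H ∈ F, Good (lam H) a fun _ => 0
    · obtain ⟨H, hH, hg⟩ := hb
      have a1 := good_sum a hg
      have a2 := G1 H hH
      rw [le, div_le_iff₀ (by linarith)] at a1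
      have a3 : ∑ S ∈ H.powerset.erase ∅, g S * (1 - (∑ x ∈ S, ((a x : ℕ) : ℝ)) / S.card) ≤ Z a := by
        rw [hZ]
        refine (sum_le_sum fun S hS => mul_le_mul_of_nonneg_left
          (phi_ge a (nonempty_iff_ne_empty.mpr (mem_erase.mp hS).1)) (g0 S).1).trans
          (sum_le_sum_of_subset_of_nonneg (erase_subset_erase _ (subset_univ _)) fun S _ _ =>
            mul_nonneg (g0 S).1 (prod_nonneg fun _ _ => by positivity))
      simp only [mul_sub, sum_sub_distrib, mul_one] at a3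
      have : 0 ≤ ∑ b ∈ univ.filter (fun b => (∀ x, b x ≤ a x) ∧
        Valid F lam b (Tset a b)), r ^ (Tset a b).card := sum_nonneg fun _ _ => by positivity
      simp only [hG] at a1 a2
      linarith
    · have : 1 / 2 < ∑ T ∈ (univ.filter (fun b => (∀ x, b x ≤ a x) ∧
          Valid F lam b (Tset a b))).image (Tset a), r ^ T.card := by
        by_contra h
        refine hn ⟨_, fun H hH => ?_, not_lt.mp h⟩
        obtain ⟨b, b1, b2, b3⟩ := frag l0 l1 l2 a hb hH
        exact ⟨_, mem_image_of_mem _ (mem_filter.mpr ⟨mem_univ _, b1, b3⟩), b2⟩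
      have := this.trans_le (sum_image_le_of_nonneg fun _ _ => by positivity)
      linarith [Z0 a]
  have tot : ∑ a : X → Fin (J + 1), ∏ x, w (a x) = 1 := by
    rw [sum_prod_lab fun _ j => w j]; simp [w1]
  have EZ : ∑ a : X → Fin (J + 1), (∏ x, w (a x)) * Z a ≤ 1 / 8 := by
    simp only [hZ, mul_sum]
    rw [sum_comm]
    calc _ ≤ ∑ S ∈ univ.erase ∅, g S * p ^ S.card / 4 := by
          refine sum_le_sum fun S hS => ?_
          have e : ∀ a : X → Fin (J + 1), (∏ x, w (a x)) * (g S * ∏ x ∈ S,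
              (16 * (1 / 16 : ℝ) ^ (a x : ℕ))) = g S * ∏ x, (w (a x) * if x ∈ S then
                16 * (1 / 16 : ℝ) ^ (a x : ℕ) else 1) := fun a => by
            rw [prod_mul_distrib (s := univ), prod_ite_mem_eq]; ring
          simp_rw [e]
          rw [← mul_sum, sum_prod_lab fun x j => w j * if x ∈ S then
            16 * (1 / 16 : ℝ) ^ (j : ℕ) else 1, mul_div_assoc]
          refine mul_le_mul_of_nonneg_left ?_ (g0 S).1
          calc _ ≤ ∏ x, if x ∈ S then p / 4 else 1 := by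
                refine prod_le_prod (fun x _ => sum_nonneg fun j _ => by
                  have := w0 j; split_ifs <;> positivity) fun x _ => ?_
                split_ifs
                · exact hφ
                · simp [w1]
            _ = p ^ S.card / 4 ^ S.card := by rw [prod_ite_mem_eq, prod_const, div_pow]
            _ ≤ _ := by
                gcongr
                exact le_self_pow₀ (by norm_num) (card_ne_zero.mpr
                  (nonempty_iff_ne_empty.mpr (mem_erase.mp hS).1))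
      _ ≤ ∑ S : Finset X, g S * p ^ S.card / 4 := sum_le_sum_of_subset_of_nonneg (subset_univ _)
          fun S _ _ => by have := (g0 S).1; positivity
      _ ≤ _ := by rw [← sum_div]; linarith
  have P := pairs_le F lam w0 w1 r0.le hp
  have := sum_le_sum (s := univ) fun (a : X → Fin (J + 1)) _ =>
    mul_le_mul_of_nonneg_left (pt a) (prod_pos (s := univ) fun x _ => w0 (a x)).le
  simp only [mul_add, sum_add_distrib, ← sum_mul, tot, mul_left_comm _ (2 : ℝ), ← mul_sum] at this
  linarith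

theorem qf_le (F : Finset (Finset X)) : qf F ≤ 1024000 * q F := by
  have q0 : 0 ≤ q F := Real.sSup_nonneg fun _ h => h.1.1
  refine Real.sSup_le (fun p hp => ?_) (by positivity)
  rcases hp.1.1.eq_or_lt with h | h
  · rw [← h]; positivity
  · have : p / 1024000 ≤ q F := le_csSup ⟨1, fun _ h => h.1.2⟩
      ⟨⟨by positivity, by linarith [hp.1.2]⟩, small_of_frac h hp.1.2 hp.2⟩
    linarith

end Vale.Agent.P034
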